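import Vale.Agent.P329.R2.H96.Det

set_option linter.all false

/-!
Clocked blocks: after every block of length `a` the state is translated by a label of the block;
a strand is cut when it is at `0`.
-/

namespace Vale.Agent.P329.Blk

open Vale.Agent.P329 Vale.Agent.P329.Slow Vale.Agent.P329.Mark

section flow

variable {α V : Type} [AddCommGroup V] (M : α → V →+ V) (a : ℕ) (lab : List α → V)

/-- the flow with translations at block ends -/
def E (w : List α) (x : V) : V :=
  if h : 0 < a ∧ a ≤ w.length then E (w.drop a) (act M (w.take a) x - lab (w.take a))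
  else act M w x
termination_by w.length
decreasing_by
  rw [List.length_drop]; omega

variable {M a lab}

theorem E_short {w : List α} (h : w.length < a) (x : V) : E M a lab w x = act M w x := by
  rw [E, dif_neg (by omega)]

theorem E_long {w : List α} (ha : 0 < a) (h : a ≤ w.length) (x : V) :
    E M a lab w x = E M a lab (w.drop a) (act M (w.take a) x - lab (w.take a)) := by
  rw [E, dif_pos ⟨ha, h⟩]

theorem E_append (ha : 0 < a) (n : ℕ) : ∀ u : List α, u.length = n * a → ∀ (y : List α) (x : V),
    E M a lab (u ++ y) x = E M a lab y (E M a lab u x) := by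
  induction n with
  | zero =>
    intro u hu y x
    have : u = [] := List.length_eq_zero_iff.1 (by omega)
    subst this
    rw [List.nil_append, E_short (w := []) (by simpa using ha)]
    rfl
  | succ n ih =>
    intro u hu y x
    have e1 : (n + 1) * a = n * a + a := by ring
    have h1 : a ≤ u.length := by omega
    rw [E_long ha (w := u ++ y) (by rw [List.length_append]; omega), E_long ha h1,
      List.take_append_of_le_length h1, List.drop_append_of_le_length h1,
      ih (u.drop a) (by rw [List.length_drop]; omega)]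

theorem E_sub (ha : 0 < a) (N : ℕ) : ∀ w : List α, w.length < N → ∀ x y : V,
    E M a lab w x - E M a lab w y = act M w (x - y) := by
  induction N with
  | zero => intro w hw; omega
  | succ N ih =>
    intro w hw x y
    by_cases h : a ≤ w.length
    · rw [E_long ha h, E_long ha h, ih (w.drop a) (by rw [List.length_drop]; omega)]
      have e1 : act M (w.take a) x - lab (w.take a) - (act M (w.take a) y - lab (w.take a)) =
          act M (w.take a) (x - y) := by
        rw [act_sub]; abel
      rw [e1, ← act_append, List.take_append_drop]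
    · rw [E_short (by omega), E_short (by omega), act_sub]

/-- the flow depends only on the labels of the blocks -/
theorem E_congr (ha : 0 < a) {lab' : List α → V} (n : ℕ) : ∀ w : List α, w.length = n * a →
    (∀ i < n, lab ((w.drop (i * a)).take a) = lab' ((w.drop (i * a)).take a)) → ∀ x : V,
      E M a lab w x = E M a lab' w x := by
  induction n with
  | zero =>
    intro w hw _ x
    rw [E_short (by omega), E_short (by omega)]
  | succ n ih =>
    intro w hw h x
    have e1 : (n + 1) * a = n * a + a := by ring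
    have h0 := h 0 (by omega)
    rw [Nat.zero_mul, List.drop_zero] at h0
    rw [E_long (lab := lab) (w := w) ha (by omega), E_long (lab := lab') (w := w) ha (by omega), h0]
    refine ih (w.drop a) (by rw [List.length_drop]; omega) (fun i hi => ?_) _
    have h1 := h (i + 1) (by omega)
    have e2 : (i + 1) * a = a + i * a := by ring
    rw [e2] at h1
    rw [List.drop_drop]
    exact h1

end flow

section star

variable {α V : Type} [AddCommGroup V] (M : α → V →+ V) (a : ℕ) (lab : List α → V) (B : ℕ)

/-- the words between two cuts -/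
def KB : Set (List α) := {y | y.length ≤ B ∧ (∃ n, y.length = n * a) ∧ E M a lab y 0 = 0}

/-- the words before the first cut -/
def PB (x : V) : Set (List α) := {y | y.length ≤ B ∧ (∃ n, y.length = n * a) ∧ E M a lab y x = 0}

/-- the words after the last cut -/
def SB (v : V) : Set (List α) := {y | y.length ≤ B ∧ E M a lab y 0 = v}

/-- every strand is cut in the next `B` letters -/
def HitB (Z : Set (List α)) : Prop :=
  ∀ w ∈ Z, ∀ p z : List α, p ++ z = w → B ≤ z.length → ∀ e : V, ∃ j n, 0 < j ∧ j ≤ B ∧ j = n * a ∧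
    E M a lab (z.take j) e = 0

variable {M a lab B}

theorem soundB_aux (ha : 0 < a) {v : V} (l : List (List α)) : (∀ k ∈ l, k ∈ KB M a lab B) →
    ∀ z ∈ SB M a lab B v, E M a lab (l.flatten ++ z) 0 = v := by
  induction l with
  | nil => intro _ z hz; simpa using hz.2
  | cons k l ih =>
    intro hl z hz
    obtain ⟨-, ⟨n, hn⟩, hk⟩ := hl k List.mem_cons_self
    rw [List.flatten_cons, List.append_assoc, E_append ha n k hn, hk]
    exact ih (fun k' hk' => hl k' (List.mem_cons_of_mem _ hk')) z hz

theorem soundB (ha : 0 < a) {x v : V} {w : List α}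
    (hw : w ∈ cat (PB M a lab B x) (cat (kst (KB M a lab B)) (SB M a lab B v))) :
    E M a lab w x = v := by
  obtain ⟨p, ⟨-, ⟨n, hn⟩, hp⟩, _, ⟨_, ⟨l, hl, rfl⟩, z, hz, rfl⟩, rfl⟩ := hw
  rw [E_append ha n p hn, hp]
  exact soundB_aux ha l hl z hz

theorem completeB_aux (ha : 0 < a) {Z : Set (List α)} (h : HitB M a lab B Z) (N : ℕ) :
    ∀ z : List α, z.length < N → ∀ p : List α, p ++ z ∈ Z →
      z ∈ cat (kst (KB M a lab B)) (SB M a lab B (E M a lab z 0)) := by
  induction N with
  | zero => intro z hz; omega
  | succ N ih =>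
    intro z hz p hp
    by_cases hlen : z.length < B
    · exact ⟨[], ⟨[], by simp, rfl⟩, z, ⟨hlen.le, rfl⟩, rfl⟩
    · push Not at hlen
      obtain ⟨j, n, hj, hjB, hjn, hE⟩ := h _ hp p z rfl hlen 0
      have hl1 : (z.take j).length = n * a := by rw [List.length_take]; omega
      have h1 := ih (z.drop j) (by rw [List.length_drop]; omega) (p ++ z.take j)
        (by rw [List.append_assoc, List.take_append_drop]; exact hp)
      have h2 : E M a lab z 0 = E M a lab (z.drop j) 0 := by
        conv_lhs => rw [← List.take_append_drop j z]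
        rw [E_append ha n _ hl1, hE]
      rw [← h2] at h1
      obtain ⟨y, hy, t, ht, hyt⟩ := h1
      refine ⟨z.take j ++ y, kst_cons' ⟨?_, ⟨n, hl1⟩, hE⟩ hy, t, ht, ?_⟩
      · rw [List.length_take]; omega
      · rw [List.append_assoc, hyt, List.take_append_drop]

theorem completeB (ha : 0 < a) {Z : Set (List α)} (h : HitB M a lab B Z) {x : V} {w : List α}
    (hw : w ∈ Z) (hB : B ≤ w.length) :
    w ∈ cat (PB M a lab B x) (cat (kst (KB M a lab B)) (SB M a lab B (E M a lab w x))) := by
  obtain ⟨j, n, hj, hjB, hjn, hE⟩ := h w hw [] w rfl hB x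
  have hl1 : (w.take j).length = n * a := by rw [List.length_take]; omega
  have h1 := completeB_aux ha h _ (w.drop j) (Nat.lt_succ_self _) (w.take j)
    (by rw [List.take_append_drop]; exact hw)
  have h2 : E M a lab w x = E M a lab (w.drop j) 0 := by
    conv_lhs => rw [← List.take_append_drop j w]
    rw [E_append ha n _ hl1, hE]
  rw [← h2] at h1
  exact ⟨w.take j, ⟨by rw [List.length_take]; omega, ⟨n, hl1⟩, hE⟩, _, h1,
    List.take_append_drop _ _⟩

theorem SH_valB [Finite α] (ha : 0 < a) {Z : Set (List α)} (hZ : SH 0 Z)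
    (h : HitB M a lab B Z) (x v : V) : SH 1 {w : List α | w ∈ Z ∧ E M a lab w x = v} := by
  classical
  have hfin : ∀ A : Set (List α), (∀ w ∈ A, w.length ≤ B) → SH 0 A := fun A hA =>
    SH.finite0 (finite_of_length B hA)
  have h1 : SH 1 (P329.cat (PB M a lab B x)
      (P329.cat (P329.kst (KB M a lab B)) (SB M a lab B v))) :=
    (hfin _ fun w hw => hw.1).of_zero.cat
      ((SH.kst (k := 0) (hfin _ fun w hw => hw.1)).cat (hfin _ fun w hw => hw.1).of_zero)
  have h3 : SH 1 ((Z ∩ P329.cat (PB M a lab B x)
      (P329.cat (P329.kst (KB M a lab B)) (SB M a lab B v))) ∪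
      {w : List α | w.length ≤ B ∧ w ∈ Z ∧ E M a lab w x = v}) :=
    (hZ.of_zero.inter h1).union (hfin _ fun w hw => hw.1).of_zero
  convert h3 using 1
  ext w
  simp only [Set.mem_union, Set.mem_inter_iff, Set.mem_setOf_eq]
  constructor
  · rintro ⟨hw, hT⟩
    by_cases hc : B ≤ w.length
    · left
      refine ⟨hw, ?_⟩
      have h4 := completeB ha h hw hc (x := x)
      rwa [hT] at h4
    · exact Or.inr ⟨by omega, hw, hT⟩
  · rintro (⟨hw, h4⟩ | ⟨-, hw, hT⟩)
    · exact ⟨hw, soundB ha h4⟩
    · exact ⟨hw, hT⟩

theorem SH_actB [Finite α] [Finite V] (ha : 0 < a) {Z : Set (List α)} (hZ : SH 0 Z)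
    (h : HitB M a lab B Z) (x : V) (T : Set V) :
    SH 1 {w : List α | w ∈ Z ∧ act M w x ∈ T} := by
  have h1 : SH 1 (⋃ v : V, ⋃ v' : V, ⋃ _ : v - v' ∈ T,
      ({w : List α | w ∈ Z ∧ E M a lab w x = v} ∩ {w : List α | w ∈ Z ∧ E M a lab w 0 = v'})) :=
    SH.iUnion fun v => SH.iUnion fun v' => SH.iUnion_prop fun _ =>
      (SH_valB ha hZ h x v).inter (SH_valB ha hZ h 0 v')
  convert h1 using 1
  ext w
  have h2 := E_sub (M := M) (lab := lab) ha (w.length + 1) w (Nat.lt_succ_self _) x 0
  rw [sub_zero] at h2
  simp only [Set.mem_iUnion]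
  constructor
  · rintro ⟨hs, hF⟩
    exact ⟨_, _, by rw [h2]; exact hF, ⟨hs, rfl⟩, ⟨hs, rfl⟩⟩
  · rintro ⟨v, v', hF, ⟨hs, rfl⟩, ⟨-, rfl⟩⟩
    rw [h2] at hF
    exact ⟨hs, hF⟩

end star

end Vale.Agent.P329.Blk
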