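import Vale.Agent.P329.R2.H96.Blk

set_option linter.all false

/-!
Many markers: the choice of the labels of the blocks.
-/

namespace Vale.Agent.P329.Blk

open Vale.Agent.P329 Vale.Agent.P329.Slow Vale.Agent.P329.Mark

section choice

/-- few tests with many fresh points can be met by one labelling; the targets may depend on the
labels in a triangular way -/
theorem exists_label2 {P V T : Type} [Fintype P] [DecidableEq P] [Fintype V] [AddCommGroup V]
    [DecidableEq V] [Fintype T] (t : ℕ) (I : T → Finset P) (hI : ∀ i, (I i).card = t)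
    (y : T → (P → V) → P → V)
    (hinj : ∀ i, Function.Injective
      (fun (ρ : P → V) (p : P) => if p ∈ I i then ρ p - y i ρ p else ρ p))
    (h : Fintype.card T * (Fintype.card V - 1) ^ t < Fintype.card V ^ t) :
    ∃ ρ : P → V, ∀ i, ∃ p ∈ I i, ρ p = y i ρ p := by
  classical
  by_contra hcon
  push Not at hcon
  have hv0 : 0 < Fintype.card V := Fintype.card_pos
  obtain ⟨i0, -⟩ := hcon (fun _ => 0)
  have ht : t ≤ Fintype.card P := by rw [← hI i0]; exact Finset.card_le_univ _
  let B : T → Finset (P → V) := fun i => Fintype.piFinset fun p =>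
    if p ∈ I i then Finset.univ.erase 0 else Finset.univ
  let F : T → Finset (P → V) := fun i => Finset.univ.filter fun ρ => ∀ p ∈ I i, ρ p ≠ y i ρ p
  have hsub : (Finset.univ : Finset (P → V)) ⊆ Finset.univ.biUnion F := by
    intro ρ _
    obtain ⟨i, hi⟩ := hcon ρ
    rw [Finset.mem_biUnion]
    exact ⟨i, Finset.mem_univ _, Finset.mem_filter.2 ⟨Finset.mem_univ _, hi⟩⟩
  have hFB : ∀ i, (F i).card ≤ (B i).card := by
    intro i
    refine Finset.card_le_card_of_injOn
      (fun (ρ : P → V) (p : P) => if p ∈ I i then ρ p - y i ρ p else ρ p) ?_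
      ((hinj i).injOn)
    intro ρ hρ
    have hρ' := (Finset.mem_filter.1 hρ).2
    show _ ∈ Fintype.piFinset _
    rw [Fintype.mem_piFinset]
    intro p
    by_cases hp : p ∈ I i
    · simp only [if_pos hp, Finset.mem_erase, Finset.mem_univ, and_true]
      exact sub_ne_zero.2 (hρ' p hp)
    · simp only [if_neg hp, Finset.mem_univ]
  have hB : ∀ i, (B i).card = (Fintype.card V - 1) ^ t * Fintype.card V ^ (Fintype.card P - t) := by
    intro i
    rw [Fintype.card_piFinset]
    have e1 : ∀ p : P, (if p ∈ I i then Finset.univ.erase 0 else Finset.univ : Finset V).card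
        = if p ∈ I i then Fintype.card V - 1 else Fintype.card V := by
      intro p
      by_cases hp : p ∈ I i
      · rw [if_pos hp, if_pos hp, Finset.card_erase_of_mem (Finset.mem_univ _), Finset.card_univ]
      · rw [if_neg hp, if_neg hp, Finset.card_univ]
    rw [Finset.prod_congr rfl fun p _ => e1 p, Finset.prod_ite, Finset.prod_const,
      Finset.prod_const]
    have e2 : (Finset.univ.filter fun p => p ∈ I i) = I i := by ext p; simp
    have e3 : (Finset.univ.filter fun p => p ∉ I i).card = Fintype.card P - t := by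
      have e4 : (Finset.univ.filter fun p => p ∉ I i) = (I i)ᶜ := by ext p; simp
      rw [e4, Finset.card_compl, hI]
    rw [e2, hI, e3]
  have h1 := ((Finset.card_le_card hsub).trans Finset.card_biUnion_le).trans
    (Finset.sum_le_sum fun i _ => hFB i)
  rw [Finset.sum_congr rfl fun i _ => hB i, Finset.sum_const, Finset.card_univ, Finset.card_univ,
    Fintype.card_fun, smul_eq_mul] at h1
  have h2 : Fintype.card T * ((Fintype.card V - 1) ^ t * Fintype.card V ^ (Fintype.card P - t)) <
      Fintype.card V ^ t * Fintype.card V ^ (Fintype.card P - t) := by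
    rw [← mul_assoc]
    exact Nat.mul_lt_mul_of_pos_right h (pow_pos hv0 _)
  rw [← pow_add, Nat.add_sub_cancel' ht] at h2
  omega

end choice

section words

variable {α : Type}

/-- the blocks of length `a` of `s` at the places `p, p + a, p + 2 * a, ...` -/
def Bks (a p : ℕ) (s : List α) : Set (List α) :=
  {b | ∃ i, p + (i + 1) * a ≤ s.length ∧ b = (s.drop (p + i * a)).take a}

theorem Bks_finite [Finite α] (a p : ℕ) (s : List α) : (Bks a p s).Finite :=
  finite_of_length a fun b hb => by
    obtain ⟨i, -, rfl⟩ := hb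
    rw [List.length_take]; exact min_le_left _ _

theorem block_of_prefix {a p i j : ℕ} {s : List α} (hj : j < i)
    (hi : p + i * a ≤ s.length) :
    (((s.drop p).take (i * a)).drop (j * a)).take a = (s.drop (p + j * a)).take a := by
  have h1 : (j + 1) * a ≤ i * a := Nat.mul_le_mul_right _ hj
  have e1 : (j + 1) * a = j * a + a := by ring
  rw [List.drop_take, List.take_take, min_eq_left (by omega), List.drop_drop]

variable [Finite α] {V : Type} [Fintype V] [AddCommGroup V] (M : α → V →+ V)

theorem exists_lab {a t : ℕ} (ha : 0 < a) (X : Finset (List α))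
    (hX : ∀ s ∈ X, ∀ p < a, t ≤ (Bks a p s).ncard)
    (hc : X.card * a * Fintype.card V * (Fintype.card V - 1) ^ t < Fintype.card V ^ t) :
    ∃ lab : List α → V, ∀ s ∈ X, ∀ p < a, ∀ e : V, ∃ i, p + (i + 1) * a ≤ s.length ∧
      E M a lab ((s.drop p).take ((i + 1) * a)) e = 0 := by
  classical
  have hPfin : {r : List α | r.length ≤ a}.Finite := finite_of_length a fun r hr => hr
  letI : Fintype {r : List α | r.length ≤ a} := hPfin.fintype
  let P := {r : List α | r.length ≤ a}
  let lb : (P → V) → List α → V := fun ρ r => if h : r.length ≤ a then ρ ⟨r, h⟩ else 0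
  -- the index of the first occurrence of a block
  have hfirst : ∀ (s : List α) (p : ℕ) (b : List α), ∃ i, b ∈ Bks a p s →
      (p + (i + 1) * a ≤ s.length ∧ b = (s.drop (p + i * a)).take a ∧
        ∀ j < i, b ≠ (s.drop (p + j * a)).take a) := by
    intro s p b
    by_cases hb : b ∈ Bks a p s
    · have hb' : ∃ i, p + (i + 1) * a ≤ s.length ∧ b = (s.drop (p + i * a)).take a := hb
      refine ⟨Nat.find hb', fun _ => ⟨(Nat.find_spec hb').1, (Nat.find_spec hb').2, ?_⟩⟩
      intro j hj he
      refine Nat.find_min hb' hj ⟨?_, he⟩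
      have h1 : (j + 1) * a ≤ (Nat.find hb' + 1) * a := Nat.mul_le_mul_right _ (by omega)
      have h2 := (Nat.find_spec hb').1
      omega
    · exact ⟨0, fun h => absurd h hb⟩
  choose fi hfi using hfirst
  have hI : ∀ (s : X) (p : Fin a), ∃ I : Finset P, I.card = t ∧ ∀ b ∈ I, b.1 ∈ Bks a p s.1 := by
    intro s p
    have h1 := hX s.1 s.2 p.1 p.2
    have hfin := Bks_finite a p.1 s.1
    rw [Set.ncard_eq_toFinset_card _ hfin] at h1
    obtain ⟨J, hJ, hJc⟩ := Finset.exists_subset_card_eq h1
    have hJ' : ∀ b ∈ J, b ∈ Bks a p.1 s.1 := fun b hb => (Set.Finite.mem_toFinset hfin).1 (hJ hb)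
    have hJl : ∀ b ∈ J, b.length ≤ a := by
      intro b hb
      obtain ⟨i, -, rfl⟩ := hJ' b hb
      rw [List.length_take]; exact min_le_left _ _
    refine ⟨J.attach.image fun b => (⟨b.1, hJl b.1 b.2⟩ : P), ?_, ?_⟩
    · rw [Finset.card_image_of_injective, Finset.card_attach, hJc]
      intro b b' hbb
      have h3 : b.1 = b'.1 := congrArg (fun z : P => z.1) hbb
      exact Subtype.ext h3
    · intro b hb
      obtain ⟨b', -, rfl⟩ := Finset.mem_image.1 hb
      exact hJ' b'.1 b'.2
  choose I hIc hIm using hI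
  let y : (X × Fin a × V) → (P → V) → P → V := fun q ρ b =>
    act M b.1 (E M a (lb ρ) ((q.1.1.drop q.2.1).take (fi q.1.1 q.2.1 b.1 * a)) q.2.2)
  have hlb : ∀ (ρ : P → V) (b : P), lb ρ b.1 = ρ b := fun ρ b => dif_pos b.2
  have hinj : ∀ q : X × Fin a × V, Function.Injective
      (fun (ρ : P → V) (b : P) => if b ∈ I q.1 q.2.1 then ρ b - y q ρ b else ρ b) := by
    rintro ⟨s, p, e⟩ ρ ρ' h
    have hnot : ∀ b : P, b ∉ I s p → ρ b = ρ' b := by
      intro b hb
      have h1 := congrFun h b
      simp only [if_neg hb] at h1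
      exact h1
    have hin : ∀ n, ∀ b : P, b ∈ I s p → fi s.1 p b.1 < n → ρ b = ρ' b := by
      intro n
      induction n with
      | zero => intro b _ hb; omega
      | succ n ih =>
        intro b hb hn
        have hfb := hfi s.1 p b.1 (hIm s p b hb)
        have hE : y (s, p, e) ρ b = y (s, p, e) ρ' b := by
          show act M b.1 (E M a (lb ρ) ((s.1.drop p).take (fi s.1 p b.1 * a)) e) =
            act M b.1 (E M a (lb ρ') ((s.1.drop p).take (fi s.1 p b.1 * a)) e)
          congr 1
          have h0 : (fi s.1 p b.1 + 1) * a = fi s.1 p b.1 * a + a := by ring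
          refine E_congr ha (fi s.1 p b.1) _ ?_ ?_ e
          · rw [List.length_take, List.length_drop]; omega
          · intro j hj
            rw [block_of_prefix hj (by omega)]
            have hl : ((s.1.drop (p + j * a)).take a).length ≤ a := by
              rw [List.length_take]; exact min_le_left _ _
            have h2 : ρ ⟨_, hl⟩ = ρ' ⟨_, hl⟩ := by
              by_cases hbj : (⟨_, hl⟩ : P) ∈ I s p
              · refine ih _ hbj ?_
                have hfj := hfi s.1 p _ (hIm s p _ hbj)
                by_contra hcon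
                push Not at hcon
                exact hfj.2.2 j (by
                  show j < fi s.1 p ((s.1.drop (p + j * a)).take a)
                  have : fi s.1 p b.1 ≤ fi s.1 p ((s.1.drop (p + j * a)).take a) := by
                    have hcon' : n ≤ fi s.1 p ((s.1.drop (p + j * a)).take a) := hcon
                    omega
                  omega) rfl
              · exact hnot _ hbj
            show lb ρ _ = lb ρ' _
            rw [show lb ρ ((s.1.drop (p + j * a)).take a) = ρ ⟨_, hl⟩ from dif_pos hl,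
              show lb ρ' ((s.1.drop (p + j * a)).take a) = ρ' ⟨_, hl⟩ from dif_pos hl, h2]
        have h1 := congrFun h b
        simp only [if_pos hb] at h1
        rw [hE] at h1
        exact sub_left_injective h1
    funext b
    by_cases hb : b ∈ I s p
    · exact hin _ b hb (Nat.lt_succ_self _)
    · exact hnot b hb
  obtain ⟨ρ, hρ⟩ := exists_label2 (P := P) (V := V) (T := X × Fin a × V) t
    (fun q => I q.1 q.2.1) (fun q => hIc q.1 q.2.1) y hinj (by
      rw [Fintype.card_prod, Fintype.card_prod, Fintype.card_coe, Fintype.card_fin, ← mul_assoc]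
      exact hc)
  refine ⟨lb ρ, fun s hs p hp e => ?_⟩
  obtain ⟨b, hb, hbe⟩ := hρ (⟨s, hs⟩, ⟨p, hp⟩, e)
  have hfb := hfi s p b.1 (hIm ⟨s, hs⟩ ⟨p, hp⟩ b hb)
  refine ⟨fi s p b.1, hfb.1, ?_⟩
  have h0 : (fi s p b.1 + 1) * a = fi s p b.1 * a + a := by ring
  have e1 : (s.drop p).take ((fi s p b.1 + 1) * a) = (s.drop p).take (fi s p b.1 * a) ++ b.1 := by
    rw [h0, List.take_add, List.drop_drop]
    congr 1
    exact hfb.2.1.symm
  have hbl : b.1.length = a := by
    rw [hfb.2.1, List.length_take, List.length_drop]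
    have := hfb.1
    omega
  rw [e1, E_append ha (fi s p b.1) _ (by
    rw [List.length_take, List.length_drop]
    have := hfb.1
    omega), E_long ha hbl.ge, ← hbl, List.take_length, List.drop_length,
    E_short (by simpa using (by omega : 0 < b.1.length))]
  rw [act_nil, hlb, hbe]
  show _ - act M b.1 (E M a (lb ρ) ((s.drop p).take (fi s p b.1 * a)) e) = 0
  rw [hbl, sub_self]

/-- the words in which every factor of length `m` contains a word of `X` -/
def DomX (X : Finset (List α)) (m : ℕ) : Set (List α) :=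
  {w | ∀ u : List α, u <:+: w → u.length = m → ∃ s ∈ X, s <:+: u}

theorem SH_DomX (X : Finset (List α)) (m : ℕ) : SH 0 (DomX X m) := by
  have hB : SH 0 {u : List α | u.length = m ∧ ¬ ∃ s ∈ X, s <:+: u} :=
    SH.finite0 (finite_of_length m fun w hw => hw.1.le)
  have h1 := ((SH.univ (k := 0)).cat (hB.cat (SH.univ (k := 0)))).compl
  convert h1 using 1
  ext w
  constructor
  · rintro hw ⟨a, -, _, ⟨u, ⟨hu, hn⟩, t, -, rfl⟩, rfl⟩
    exact hn (hw u ⟨a, t, by simp⟩ hu)
  · intro hw u hu hm
    by_contra hn
    obtain ⟨a, t, rfl⟩ := hu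
    exact hw ⟨a, trivial, u ++ t, ⟨u, ⟨hm, hn⟩, t, trivial, rfl⟩, by simp⟩

theorem SH_blk {a t : ℕ} (ha : 0 < a) (X : Finset (List α))
    (hX : ∀ s ∈ X, ∀ p < a, t ≤ (Bks a p s).ncard)
    (hc : X.card * a * Fintype.card V * (Fintype.card V - 1) ^ t < Fintype.card V ^ t) (m : ℕ)
    (x : V) (T : Set V) : SH 1 {w : List α | w ∈ DomX X m ∧ act M w x ∈ T} := by
  obtain ⟨lab, hlab⟩ := exists_lab M ha X hX hc
  refine SH_actB (M := M) (a := a) (lab := lab) (B := m) ha (SH_DomX X m) ?_ x T
  intro w hw p z hpz hz e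
  obtain ⟨s, hs, c, d, hcd⟩ := hw (z.take m) (by
      rw [← hpz]
      exact ((List.take_prefix _ _).isInfix).trans (List.suffix_append _ _).isInfix)
    (by rw [List.length_take]; omega)
  obtain ⟨k, hk⟩ : ∃ k, k = c.length / a := ⟨_, rfl⟩
  obtain ⟨q, hq, k', hqk⟩ : ∃ q, q < a ∧ ∃ k', c.length + q = k' * a := by
    rcases Nat.eq_zero_or_pos (c.length % a) with h0 | h0
    · refine ⟨0, ha, c.length / a, ?_⟩
      have := Nat.div_add_mod c.length a
      rw [Nat.mul_comm] at this
      omega
    · refine ⟨a - c.length % a, by omega, c.length / a + 1, ?_⟩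
      have := Nat.div_add_mod c.length a
      have h1 := Nat.mod_lt c.length ha
      have e1 : (c.length / a + 1) * a = a * (c.length / a) + a := by ring
      omega
  obtain ⟨i, hi, hE⟩ := hlab s hs q hq (E M a lab (c ++ s.take q) e)
  have hcl := congrArg List.length hcd
  rw [List.length_append, List.length_append, List.length_take, min_eq_left hz] at hcl
  have hqs : q ≤ s.length := by omega
  have e2 : (k' + (i + 1)) * a = k' * a + (i + 1) * a := by ring
  have hpos : 0 < (i + 1) * a := Nat.mul_pos (by omega) ha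
  refine ⟨c.length + q + (i + 1) * a, k' + (i + 1), by omega, by omega, by omega, ?_⟩
  have e3 : z.take (c.length + q + (i + 1) * a) =
      (c ++ s.take q) ++ (s.drop q).take ((i + 1) * a) := by
    have e4 : z.take (c.length + q + (i + 1) * a) =
        (z.take m).take (c.length + q + (i + 1) * a) := by
      rw [List.take_take, min_eq_left (by omega)]
    rw [e4, ← hcd, List.append_assoc c s d, Nat.add_assoc, List.take_length_add_append,
      List.take_append_of_le_length (by omega), List.take_add, List.append_assoc]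
  rw [e3, E_append ha k' _ (by rw [List.length_append, List.length_take]; omega)]
  exact hE

/-- many markers -/
theorem regular_blk (L : Language α) (hL : L.IsRegular) : ∃ C : ℕ, ∀ a : ℕ, 0 < a →
    ∀ X : Finset (List α), (∀ s ∈ X, ∀ p < a,
      C * (Nat.log 2 (a * X.card) + 1) ≤ (Bks a p s).ncard) → ∀ m : ℕ,
        SH 1 {w : List α | w ∈ L ∧ w ∈ DomX X m} := by
  classical
  obtain ⟨σ, hσ, A, rfl⟩ := hL
  obtain ⟨v, hv⟩ : ∃ v, v = Fintype.card (Fin (Fintype.card σ) → ZMod 2) := ⟨_, rfl⟩
  refine ⟨v * (Nat.log 2 v + 3), fun a ha X hX m => ?_⟩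
  have hv0 : 0 < v := by rw [hv]; exact Fintype.card_pos
  obtain ⟨p, hp⟩ : ∃ p, p = a * X.card := ⟨_, rfl⟩
  rw [← hp] at hX
  obtain ⟨j, hj⟩ : ∃ j, j = Nat.log 2 (v * p) + 1 := ⟨_, rfl⟩
  have hjv : v * p < 2 ^ j := by rw [hj]; exact Nat.lt_pow_succ_log_self (by norm_num) _
  have hjle : j ≤ (Nat.log 2 v + 3) * (Nat.log 2 p + 1) := by
    have h1 : v < 2 ^ (Nat.log 2 v + 1) := Nat.lt_pow_succ_log_self (by norm_num) _
    have h2 : p < 2 ^ (Nat.log 2 p + 1) := Nat.lt_pow_succ_log_self (by norm_num) _
    have h3 : v * p < 2 ^ ((Nat.log 2 v + 1) + (Nat.log 2 p + 1)) := by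
      rw [pow_add]
      exact Nat.mul_lt_mul_of_lt_of_le h1 h2.le (by positivity)
    have h4 : Nat.log 2 (v * p) < (Nat.log 2 v + 1) + (Nat.log 2 p + 1) := by
      rcases Nat.eq_zero_or_pos (v * p) with h0 | h0
      · rw [h0]; simp
      · exact (Nat.log_lt_iff_lt_pow (by norm_num) (by omega)).2 h3
    have h5 : (Nat.log 2 v + 3) * (Nat.log 2 p + 1) =
      Nat.log 2 v * Nat.log 2 p + Nat.log 2 v + 3 * Nat.log 2 p + 3 := by ring
    rw [h5, hj]
    have h6 : 0 ≤ Nat.log 2 v * Nat.log 2 p := Nat.zero_le _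
    omega
  refine dfa_transfer (Q := DomX X m) (P := fun X => SH 1 X) A fun M x T => ?_
  refine SH_blk M (a := a) (t := v * j) ha X ?_ ?_ m x T
  · intro s hs q hq
    refine le_trans ?_ (hX s hs q hq)
    calc v * j ≤ v * ((Nat.log 2 v + 3) * (Nat.log 2 p + 1)) := Nat.mul_le_mul_left _ hjle
      _ = _ := by ring
  · rw [← hv]
    have h1 := Lab.pow_ineq v j hv0
    have hvp : 0 < v ^ (v * j) := by positivity
    rcases Nat.eq_zero_or_pos ((v - 1) ^ (v * j)) with h0 | h0
    · rw [h0, Nat.mul_zero]; exact hvp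
    · calc X.card * a * v * (v - 1) ^ (v * j) < 2 ^ j * (v - 1) ^ (v * j) := by
            refine Nat.mul_lt_mul_of_pos_right ?_ h0
            calc X.card * a * v = v * p := by rw [hp]; ring
              _ < 2 ^ j := hjv
        _ ≤ v ^ (v * j) := h1

end words

end Vale.Agent.P329.Blk
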