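import Vale.Agent.P329.R2.H96.Sub
import Vale.Agent.P329.Mark.Low

set_option linter.all false

/-!
Rare branching and subquadratic complexity: the regular languages.
-/

namespace Vale.Agent.P329.Lab

open Vale.Agent.P329 Vale.Agent.P329.Slow Vale.Agent.P329.Mark

section main

variable {α : Type} [Finite α]

/-- rare branching -/
theorem regular_det (L : Language α) (hL : L.IsRegular) (N : ℕ) : ∃ C : ℕ, ∀ F : Set (List α),
    (∀ w ∈ F, ∀ u : List α, u <:+: w → u ∈ F) →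
    (∀ z : List α, z ≠ [] → (List.replicate N z).flatten ∉ F) → ∀ a b : ℕ,
    C * (Nat.log 2 (Lev F (3 * a)).ncard + 1) ≤ b → b ≤ a →
    (∀ s ∈ F, s.length = 2 * a → C * (UndSet F a b s).ncard ≤ a) →
      SH 1 {w : List α | w ∈ L ∧ w ∈ Loc F (3 * a)} := by
  obtain ⟨σ, hσ, A, rfl⟩ := hL
  obtain ⟨v, hv⟩ : ∃ v, v = Fintype.card (Fin (Fintype.card σ) → ZMod 2) := ⟨_, rfl⟩
  refine ⟨4 * (N + 1) + 2 * (N + 1) * v * (Nat.log 2 v + 3), fun F hfac hN a b hb hba hU => ?_⟩
  have hF : ∀ s ∈ F, Free (N + 1) s := by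
    intro s hs z hz hzs
    refine hN z hz (hfac _ (hfac s hs _ hzs) _ ?_)
    rw [List.replicate_succ, List.flatten_cons]
    exact (List.suffix_append _ _).isInfix
  refine dfa_transfer (Q := Loc F (3 * a)) (P := fun X => SH 1 X) A fun M x T => ?_
  refine SH_det' M (N := N + 1) (a := a) (b := b) (by omega) hfac hF ?_ hba ?_ x T
  · rw [← hv]
    refine le_trans (Nat.mul_le_mul_right _ ?_) hb
    exact Nat.le_add_left _ _
  · intro s hs hlen
    exact (Nat.mul_le_mul_right _ (Nat.le_add_right _ _)).trans (hU s hs hlen)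

theorem exists_ext {F : Set (List α)} (hext : ∀ w ∈ F, ∃ a, w ++ [a] ∈ F) (b : ℕ) :
    ∀ w ∈ F, ∃ r : List α, r.length = b ∧ w ++ r ∈ F := by
  induction b with
  | zero => intro w hw; exact ⟨[], rfl, by simpa using hw⟩
  | succ b ih =>
    intro w hw
    obtain ⟨r, hr, hwr⟩ := ih w hw
    obtain ⟨x, hx⟩ := hext _ hwr
    exact ⟨r ++ [x], by simp [hr], by rw [← List.append_assoc]; exact hx⟩

/-- undetermined words are few -/
theorem Und_card {F : Set (List α)} (hext : ∀ w ∈ F, ∃ a, w ++ [a] ∈ F) (a b : ℕ) :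
    {l | l ∈ Lev F a ∧ Und F b l}.ncard + (Lev F a).ncard ≤ (Lev F (a + b)).ncard := by
  classical
  have h1 : ∀ u : List α, ∃ v : List α, u ∈ Lev F a → v ∈ Lev F (a + b) ∧ v.take a = u := by
    intro u
    by_cases hu : u ∈ Lev F a
    · obtain ⟨r, hr, hur⟩ := exists_ext hext b u hu.1
      refine ⟨u ++ r, fun _ => ⟨⟨hur, by rw [List.length_append, hu.2, hr]⟩, ?_⟩⟩
      rw [← hu.2, List.take_left]
    · exact ⟨[], fun h => absurd h hu⟩
  choose e he using h1
  have h2 : ∀ u : List α, ∃ v : List α, u ∈ {l | l ∈ Lev F a ∧ Und F b l} →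
      v ∈ Lev F (a + b) ∧ v.take a = u ∧ v ≠ e u := by
    intro u
    by_cases hu : u ∈ {l | l ∈ Lev F a ∧ Und F b l}
    · obtain ⟨hu1, r, r', hr, hr', h3, h4, hne⟩ := hu
      by_cases h5 : u ++ r = e u
      · refine ⟨u ++ r', fun _ => ⟨⟨h4, by rw [List.length_append, hu1.2, hr']⟩, ?_, ?_⟩⟩
        · rw [← hu1.2, List.take_left]
        · rw [← h5]
          intro h6
          exact hne (List.append_cancel_left h6).symm
      · refine ⟨u ++ r, fun _ => ⟨⟨h3, by rw [List.length_append, hu1.2, hr]⟩, ?_, h5⟩⟩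
        rw [← hu1.2, List.take_left]
    · exact ⟨[], fun h => absurd h hu⟩
  choose e' he' using h2
  have hfin : {l | l ∈ Lev F a ∧ Und F b l}.Finite := (Lev_finite F a).subset fun l hl => hl.1
  have h3 : Disjoint (e' '' {l | l ∈ Lev F a ∧ Und F b l}) (e '' Lev F a) := by
    rw [Set.disjoint_left]
    rintro _ ⟨u, hu, rfl⟩ ⟨v, hv, h4⟩
    have h5 := (he' u hu).2.1
    rw [← h4, (he v hv).2] at h5
    subst h5
    exact (he' v hu).2.2 h4.symm
  have h4 : (e' '' {l | l ∈ Lev F a ∧ Und F b l} ∪ e '' Lev F a) ⊆ Lev F (a + b) := by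
    rintro _ (⟨u, hu, rfl⟩ | ⟨u, hu, rfl⟩)
    · exact (he' u hu).1
    · exact (he u hu).1
  have h5 := Set.ncard_le_ncard h4 (Lev_finite F (a + b))
  rw [Set.ncard_union_eq h3 (hfin.image _) ((Lev_finite F a).image _)] at h5
  rw [Set.ncard_image_of_injOn, Set.ncard_image_of_injOn] at h5
  · exact h5
  · intro u hu v hv huv
    rw [← (he u hu).2, ← (he v hv).2]
    exact congrArg (List.take a) huv
  · intro u hu v hv huv
    rw [← (he' u hu).2.1, ← (he' v hv).2.1]
    exact congrArg (List.take a) huv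

theorem Lev_mono {F : Set (List α)} (hext : ∀ w ∈ F, ∃ a, w ++ [a] ∈ F) :
    Monotone fun n => (Lev F n).ncard :=
  monotone_nat_of_le_succ fun n => by
    have := Und_card hext n 1
    omega

end main

section arith

theorem log_small (K : ℕ) (n : ℕ) (hn : 2 ^ (4 * K) ≤ n) : K * (Nat.log 2 n + 1) ≤ n := by
  obtain ⟨l, hl⟩ : ∃ l, l = Nat.log 2 n := ⟨_, rfl⟩
  have hn0 : n ≠ 0 := by
    have : 0 < 2 ^ (4 * K) := by positivity
    omega
  have h1 : 4 * K ≤ l := by
    rw [hl]; exact (Nat.le_log_iff_pow_le (by norm_num) hn0).2 hn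
  have h2 : 2 ^ l ≤ n := by rw [hl]; exact Nat.pow_log_le_self 2 hn0
  rw [← hl]
  refine le_trans ?_ h2
  have h3 : l / 2 < 2 ^ (l / 2) := Nat.lt_two_pow_self
  have h4 : l - l / 2 < 2 ^ (l - l / 2) := Nat.lt_two_pow_self
  have h5 : 2 ^ l = 2 ^ (l / 2) * 2 ^ (l - l / 2) := by rw [← pow_add]; congr 1; omega
  rw [h5]
  have h6 : 2 * K ≤ 2 ^ (l / 2) := by omega
  have h7 : l + 1 ≤ 2 * 2 ^ (l - l / 2) := by omega
  have h8 : 2 * (K * (l + 1)) ≤ 2 * (2 ^ (l / 2) * 2 ^ (l - l / 2)) := by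
    calc 2 * (K * (l + 1)) = (2 * K) * (l + 1) := by ring
      _ ≤ 2 ^ (l / 2) * (2 * 2 ^ (l - l / 2)) := Nat.mul_le_mul h6 h7
      _ = _ := by ring
  omega

theorem exists_small_step' (p : ℕ → ℕ) (hp : Monotone p) (h b I : ℕ) (hI : 0 < I) :
    ∃ i, i < I ∧ I * (p (h + i * b + b) - p (h + i * b)) ≤ p (h + I * b) := by
  by_contra hcon
  push Not at hcon
  have h1 : ∀ J, ∑ i ∈ Finset.range J, (p (h + i * b + b) - p (h + i * b)) =
      p (h + J * b) - p h := by
    intro J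
    induction J with
    | zero => simp
    | succ J ih =>
      rw [Finset.sum_range_succ, ih]
      have e1 : h + (J + 1) * b = h + J * b + b := by ring
      rw [e1]
      have h2 : p h ≤ p (h + J * b) := hp (Nat.le_add_right _ _)
      have h3 : p (h + J * b) ≤ p (h + J * b + b) := hp (Nat.le_add_right _ _)
      omega
  have h2 : ∑ i ∈ Finset.range I, (p (h + I * b) + 1) ≤
      ∑ i ∈ Finset.range I, I * (p (h + i * b + b) - p (h + i * b)) :=
    Finset.sum_le_sum fun i hi => hcon i (Finset.mem_range.1 hi)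
  rw [← Finset.mul_sum, h1, Finset.sum_const, Finset.card_range, smul_eq_mul] at h2
  have h3 := Nat.le_of_mul_le_mul_left h2 hI
  omega

theorem exists_scale (p : ℕ → ℕ) (hp : Monotone p) (C n : ℕ) (hC : 0 < C)
    (hn : 2 ^ (4 * (24 * C)) ≤ n) (h : 1152 * C ^ 2 * (p n * Nat.log 2 n) ≤ n ^ 2) :
    ∃ a b, 0 < a ∧ 3 * a ≤ n ∧ C * (Nat.log 2 (p (3 * a)) + 1) ≤ b ∧ b ≤ a ∧
      C * (p (a + b) - p a) ≤ a := by
  obtain ⟨l, hl⟩ : ∃ l, l = Nat.log 2 n := ⟨_, rfl⟩
  rw [← hl] at h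
  have hlog := log_small (24 * C) n hn
  rw [← hl] at hlog
  have hn16 : 2 ^ (4 * (24 * 1)) ≤ n :=
    (Nat.pow_le_pow_right (by norm_num) (by omega)).trans hn
  have hn12 : 12 ≤ n := le_trans (by norm_num) hn16
  have hl1 : 1 ≤ l := by
    rw [hl]
    exact (Nat.le_log_iff_pow_le (by norm_num) (by omega)).2 (by omega)
  have hnl : n < 2 ^ (l + 1) := by rw [hl]; exact Nat.lt_pow_succ_log_self (by norm_num) _
  obtain ⟨H, hH⟩ : ∃ H, H = n / 6 := ⟨_, rfl⟩
  have hH1 : 6 * H ≤ n := by omega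
  have hH2 : n ≤ 12 * H := by omega
  obtain ⟨b, hb⟩ : ∃ b, b = C * (2 * l + 2) := ⟨_, rfl⟩
  have hb1 : 12 * b ≤ n := by
    calc 12 * b = 24 * C * (l + 1) := by rw [hb]; ring
      _ ≤ n := hlog
  have hbH : b ≤ H := by omega
  have hb0 : 0 < b := by rw [hb]; positivity
  obtain ⟨I, hI⟩ : ∃ I, I = H / b := ⟨_, rfl⟩
  have hI0 : 0 < I := by rw [hI]; exact Nat.div_pos hbH hb0
  have hI1 : I * b ≤ H := by rw [hI]; exact Nat.div_mul_le_self _ _
  have hI2 : H ≤ 2 * (I * b) := by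
    have h1 : H < (I + 1) * b := by
      rw [hI, Nat.mul_comm]; exact Nat.lt_mul_div_succ _ hb0
    have h2 : b ≤ I * b := Nat.le_mul_of_pos_left _ hI0
    have e1 : (I + 1) * b = I * b + b := by ring
    omega
  obtain ⟨i, hi, hstep⟩ := exists_small_step' p hp H b I hI0
  have hib : (i + 1) * b ≤ I * b := Nat.mul_le_mul_right _ hi
  have e2 : (i + 1) * b = i * b + b := by ring
  have hp1 : p (H + I * b) ≤ p n := hp (by omega)
  have hpn : p n ≤ n ^ 2 := by
    refine le_trans ?_ h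
    calc p n = 1 * (p n * 1) := by ring
      _ ≤ 1152 * C ^ 2 * (p n * l) := Nat.mul_le_mul (by
          have : 0 < C ^ 2 := by positivity
          omega) (Nat.mul_le_mul_left _ hl1)
  refine ⟨H + i * b, b, by omega, by omega, ?_, by omega, ?_⟩
  · suffices hs : Nat.log 2 (p (3 * (H + i * b))) + 1 ≤ 2 * l + 2 by
      calc C * (Nat.log 2 (p (3 * (H + i * b))) + 1) ≤ C * (2 * l + 2) :=
            Nat.mul_le_mul_left _ hs
        _ = b := hb.symm
    have h1 : p (3 * (H + i * b)) ≤ n ^ 2 := (hp (by omega)).trans hpn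
    have h2 : n ^ 2 < 2 ^ (2 * l + 2) := by
      calc n ^ 2 < (2 ^ (l + 1)) ^ 2 := Nat.pow_lt_pow_left hnl (by norm_num)
        _ = 2 ^ (2 * l + 2) := by rw [← pow_mul]; congr 1; ring
    rcases Nat.eq_zero_or_pos (p (3 * (H + i * b))) with h0 | h0
    · rw [h0]; simp
    · have h3 : Nat.log 2 (p (3 * (H + i * b))) < 2 * l + 2 :=
        (Nat.log_lt_iff_lt_pow (by norm_num) (by omega)).2 (lt_of_le_of_lt h1 h2)
      omega
  · obtain ⟨D, hD⟩ : ∃ D, D = p (H + i * b + b) - p (H + i * b) := ⟨_, rfl⟩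
    rw [← hD] at hstep ⊢
    have h1 : I * D ≤ p n := hstep.trans hp1
    -- `I * (C * D) ≤ C * p n ≤ I * H`
    have h2 : C * p n ≤ I * H := by
      have h3 : 2 * b * (C * p n) ≤ H * H := by
        have h4 : 144 * (2 * b * (C * p n)) ≤ n * n := by
          calc 144 * (2 * b * (C * p n)) = 576 * C ^ 2 * (p n * (l + 1)) := by rw [hb]; ring
            _ ≤ 576 * C ^ 2 * (p n * (2 * l)) :=
              Nat.mul_le_mul_left _ (Nat.mul_le_mul_left _ (by omega))
            _ = 1152 * C ^ 2 * (p n * l) := by ring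
            _ ≤ n ^ 2 := h
            _ = n * n := by ring
        have h5 : n * n ≤ 144 * (H * H) := by
          calc n * n ≤ (12 * H) * (12 * H) := Nat.mul_le_mul hH2 hH2
            _ = 144 * (H * H) := by ring
        omega
      have h6 : H * H ≤ 2 * (I * b) * H := Nat.mul_le_mul_right _ hI2
      have h7 : 2 * b * (C * p n) ≤ 2 * b * (I * H) := by
        calc 2 * b * (C * p n) ≤ H * H := h3
          _ ≤ 2 * (I * b) * H := h6
          _ = 2 * b * (I * H) := by ring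
      exact Nat.le_of_mul_le_mul_left h7 (by omega)
    have h3 : I * (C * D) ≤ I * H := by
      calc I * (C * D) = C * (I * D) := by ring
        _ ≤ C * p n := Nat.mul_le_mul_left _ h1
        _ ≤ I * H := h2
    have h4 := Nat.le_of_mul_le_mul_left h3 hI0
    omega

end arith

section main

variable {α : Type} [Finite α]

/-- subquadratic complexity -/
theorem regular_sub (L : Language α) (hL : L.IsRegular) (N : ℕ) : ∃ C : ℕ, ∀ F : Set (List α),
    (∀ w ∈ F, ∀ u : List α, u <:+: w → u ∈ F) → (∀ w ∈ F, ∃ a : α, w ++ [a] ∈ F) →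
    (∀ z : List α, z ≠ [] → (List.replicate N z).flatten ∉ F) → ∀ n : ℕ, C ≤ n →
    C * ((Lev F n).ncard * Nat.log 2 n) ≤ n ^ 2 →
      ∃ m, 0 < m ∧ m ≤ n ∧ SH 1 {w : List α | w ∈ L ∧ w ∈ Loc F m} := by
  obtain ⟨C, hC⟩ := regular_det L hL N
  refine ⟨2 ^ (4 * (24 * (C + 1))) + 1152 * (C + 1) ^ 2, fun F hfac hext hN n hn hcpx => ?_⟩
  obtain ⟨a, b, ha, han, hb, hba, hab⟩ := exists_scale (fun n => (Lev F n).ncard) (Lev_mono hext)
    (C + 1) n (by omega) (by omega)
    ((Nat.mul_le_mul_right _ (Nat.le_add_left _ _)).trans hcpx)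
  refine ⟨3 * a, by omega, han, hC F hfac hN a b ?_ hba ?_⟩
  · exact (Nat.mul_le_mul_right _ (by omega)).trans hb
  · intro s hs hlen
    have h1 : UndSet F a b s ⊆ {l | l ∈ Lev F a ∧ Und F b l} := fun l hl =>
      ⟨⟨hfac s hs l hl.1, hl.2.1⟩, hl.2.2⟩
    have hfin : {l | l ∈ Lev F a ∧ Und F b l}.Finite := (Lev_finite F a).subset fun l hl => hl.1
    have h2 := Set.ncard_le_ncard h1 hfin
    have h3 := Und_card hext a b
    have h4 : (UndSet F a b s).ncard ≤ (Lev F (a + b)).ncard - (Lev F a).ncard := by omega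
    calc C * (UndSet F a b s).ncard ≤ (C + 1) * ((Lev F (a + b)).ncard - (Lev F a).ncard) :=
          Nat.mul_le_mul (by omega) h4
      _ ≤ a := hab

end main

end Vale.Agent.P329.Lab
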