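import Vale.Agent.P329.R2.H96.Lab

set_option linter.all false

/-!
Factorial languages in which left windows usually determine their continuation.
-/

namespace Vale.Agent.P329.Lab

open Vale.Agent.P329 Vale.Agent.P329.Slow Vale.Agent.P329.Mark

section choice

theorem pow_step (w n : ℕ) : w ^ (n + 1) + (n + 1) * w ^ n ≤ (w + 1) ^ (n + 1) := by
  induction n with
  | zero => simp
  | succ n ih =>
    calc w ^ (n + 1 + 1) + (n + 1 + 1) * w ^ (n + 1)
        ≤ (w + 1) * (w ^ (n + 1) + (n + 1) * w ^ n) := by
          have e1 : (w + 1) * (w ^ (n + 1) + (n + 1) * w ^ n) =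
            w ^ (n + 1 + 1) + (n + 1 + 1) * w ^ (n + 1) + (n + 1) * w ^ n := by ring
          rw [e1]; exact Nat.le_add_right _ _
      _ ≤ (w + 1) * (w + 1) ^ (n + 1) := Nat.mul_le_mul_left _ ih
      _ = (w + 1) ^ (n + 1 + 1) := by ring

theorem pow_ineq (v j : ℕ) (hv : 0 < v) : 2 ^ j * (v - 1) ^ (v * j) ≤ v ^ (v * j) := by
  obtain ⟨w, rfl⟩ : ∃ w, v = w + 1 := ⟨v - 1, by omega⟩
  rw [pow_mul, pow_mul, ← mul_pow, Nat.add_sub_cancel]
  refine Nat.pow_le_pow_left ?_ j
  have h := pow_step w w
  have h2 : 2 * w ^ (w + 1) ≤ w ^ (w + 1) + (w + 1) * w ^ w := by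
    have e1 : (w + 1) * w ^ w = w ^ (w + 1) + w ^ w := by ring
    rw [e1]
    omega
  exact h2.trans h

/-- few tests with many points each can be met by one labelling -/
theorem exists_label {P V T : Type} [Fintype P] [DecidableEq P] [Fintype V] [Nonempty V]
    [DecidableEq V] [Fintype T] (t : ℕ) (I : T → Finset P) (hI : ∀ i, (I i).card = t)
    (y : T → P → V)
    (h : Fintype.card T * (Fintype.card V - 1) ^ t < Fintype.card V ^ t) :
    ∃ ρ : P → V, ∀ i, ∃ p ∈ I i, ρ p = y i p := by
  classical
  by_contra hcon
  push Not at hcon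
  have hv0 : 0 < Fintype.card V := Fintype.card_pos
  obtain ⟨i0, -⟩ := hcon (fun _ => Classical.arbitrary V)
  have ht : t ≤ Fintype.card P := by rw [← hI i0]; exact Finset.card_le_univ _
  let B : T → Finset (P → V) := fun i => Fintype.piFinset fun p =>
    if p ∈ I i then Finset.univ.erase (y i p) else Finset.univ
  have hsub : (Finset.univ : Finset (P → V)) ⊆ Finset.univ.biUnion B := by
    intro ρ _
    obtain ⟨i, hi⟩ := hcon ρ
    rw [Finset.mem_biUnion]
    refine ⟨i, Finset.mem_univ _, ?_⟩
    rw [Fintype.mem_piFinset]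
    intro p
    by_cases hp : p ∈ I i
    · rw [if_pos hp, Finset.mem_erase]; exact ⟨hi p hp, Finset.mem_univ _⟩
    · rw [if_neg hp]; exact Finset.mem_univ _
  have hB : ∀ i, (B i).card = (Fintype.card V - 1) ^ t * Fintype.card V ^ (Fintype.card P - t) := by
    intro i
    rw [Fintype.card_piFinset]
    have e1 : ∀ p : P, (if p ∈ I i then Finset.univ.erase (y i p) else Finset.univ : Finset V).card
        = if p ∈ I i then Fintype.card V - 1 else Fintype.card V := by
      intro p
      by_cases hp : p ∈ I i
      · rw [if_pos hp, if_pos hp, Finset.card_erase_of_mem (Finset.mem_univ _), Finset.card_univ]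
      · rw [if_neg hp, if_neg hp, Finset.card_univ]
    rw [Finset.prod_congr rfl fun p _ => e1 p, Finset.prod_ite, Finset.prod_const,
      Finset.prod_const]
    have e2 : (Finset.univ.filter fun p => p ∈ I i) = I i := by ext p; simp
    have e3 : (Finset.univ.filter fun p => p ∉ I i).card = Fintype.card P - t := by
      have e4 : (Finset.univ.filter fun p => p ∉ I i) = (I i)ᶜ := by ext p; simp
      rw [e4, Finset.card_compl, hI]
    rw [e2, hI, e3]
  have h1 := (Finset.card_le_card hsub).trans Finset.card_biUnion_le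
  rw [Finset.sum_congr rfl fun i _ => hB i, Finset.sum_const, Finset.card_univ, Finset.card_univ,
    Fintype.card_fun, smul_eq_mul] at h1
  have h2 : Fintype.card T * ((Fintype.card V - 1) ^ t * Fintype.card V ^ (Fintype.card P - t)) <
      Fintype.card V ^ t * Fintype.card V ^ (Fintype.card P - t) := by
    rw [← mul_assoc]
    exact Nat.mul_lt_mul_of_pos_right h (pow_pos hv0 _)
  rw [← pow_add, Nat.add_sub_cancel' ht] at h2
  omega

end choice

section words

variable {α : Type}

/-- `l` has two continuations of length `b` in `F` -/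
def Und (F : Set (List α)) (b : ℕ) (l : List α) : Prop :=
  ∃ r r' : List α, r.length = b ∧ r'.length = b ∧ l ++ r ∈ F ∧ l ++ r' ∈ F ∧ r ≠ r'

theorem window_ne {s : List α} {N p d len : ℕ} (hs : Free N s) (hd : 0 < d)
    (hlen : N * d ≤ len + d) (hp : p + d + len ≤ s.length) (hN : p + N * d ≤ s.length) :
    (s.drop p).take len ≠ (s.drop (p + d)).take len := by
  intro h
  have hAg : Ag (fun x => s[x]?) (fun x => s[x]?) p (p + d) len := by
    intro y hy
    have h1 := congrArg (fun l => l[y]?) h
    simp only [List.getElem?_take, if_pos hy, List.getElem?_drop] at h1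
    exact h1
  obtain ⟨z, hz, -, h2⟩ := pow_of_period hd hN (by omega) hlen hAg
  refine hs z hz ?_
  rw [h2]
  exact ((List.take_prefix _ _).isInfix).trans (List.drop_suffix _ _).isInfix

/-- two windows at different places of a short interval are different -/
theorem window_inj {s : List α} {N len lo hi D : ℕ} (hs : Free N s)
    (hD : N * D ≤ len) (hlo : hi ≤ lo + D) (h : hi + len ≤ s.length) {x y : ℕ}
    (hx : lo ≤ x) (hx2 : x ≤ hi) (hy : lo ≤ y) (hy2 : y ≤ hi)
    (he : (s.drop x).take len = (s.drop y).take len) : x = y := by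
  by_contra hne
  have main : ∀ x y, lo ≤ x → y ≤ hi → x < y → (s.drop x).take len = (s.drop y).take len →
      False := by
    intro x y hx hy hxy he
    obtain ⟨d, rfl⟩ : ∃ d, y = x + d := ⟨y - x, by omega⟩
    have h1 : N * d ≤ N * D := Nat.mul_le_mul_left _ (by omega)
    exact window_ne hs (by omega) (by omega) (by omega) (by omega) he
  rcases lt_or_gt_of_ne hne with h1 | h1
  · exact main x y hx hy2 h1 he
  · exact main y x hy hx2 h1 he.symm

theorem exists_long {w y : List α} {n : ℕ} (hy : y <:+: w) (h1 : y.length ≤ n)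
    (h2 : n ≤ w.length) : ∃ u, u <:+: w ∧ u.length = n ∧ y <:+: u := by
  obtain ⟨p, q, rfl⟩ := hy
  have hl : (p ++ y ++ q).length = p.length + y.length + q.length := by
    simp only [List.length_append]
  rw [hl] at h2
  by_cases h3 : p.length + n ≤ (p ++ y ++ q).length
  · refine ⟨((p ++ y ++ q).drop p.length).take n,
      ((List.take_prefix _ _).isInfix).trans (List.drop_suffix _ _).isInfix, ?_, ?_⟩
    · rw [List.length_take, List.length_drop]; omega
    · rw [List.append_assoc, List.drop_left, List.take_append, List.take_of_length_le h1]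
      exact (List.prefix_append _ _).isInfix
  · refine ⟨(p ++ y ++ q).drop ((p ++ y ++ q).length - n), (List.drop_suffix _ _).isInfix, ?_, ?_⟩
    · rw [List.length_drop]; omega
    · rw [List.append_assoc, List.drop_append_of_le_length
        (by rw [← List.append_assoc]; omega)]
      exact ⟨_, q, by rw [List.append_assoc]⟩

end words

end Vale.Agent.P329.Lab
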