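import Vale.Agent.P329.Mark.Long

set_option linter.all false

/-!
Labelled windows: a star evaluates a linear action when the label of every left window is
predicted by the right window.
-/

namespace Vale.Agent.P329.Lab

open Vale.Agent.P329 Vale.Agent.P329.Slow Vale.Agent.P329.Mark

section lab

variable {α V : Type} [AddCommGroup V] (M : α → V →+ V) (lam : List α → Option V)
  (rho : List α → V) (a b c : ℕ)

/-- words between two cuts -/
def KL : Set (List α) :=
  {k | a ≤ k.length ∧ k.length ≤ c ∧
    lam (k.drop (k.length - a)) = some (act M k (rho (k.take b)))}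

/-- words before the first cut -/
def PL (x : V) : Set (List α) :=
  {k | a ≤ k.length ∧ k.length ≤ c ∧ lam (k.drop (k.length - a)) = some (act M k x)}

/-- words after the last cut -/
def SL (v : V) : Set (List α) :=
  {z | b ≤ z.length ∧ z.length ≤ c ∧ act M z (rho (z.take b)) = v}

variable {M lam rho a b c}

theorem drop_append_suffix (u k : List α) (h : a ≤ k.length) :
    (u ++ k).drop ((u ++ k).length - a) = k.drop (k.length - a) := by
  rw [List.length_append]
  have e : u.length + k.length - a = u.length + (k.length - a) := by omega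
  rw [e, List.drop_append, List.drop_of_length_le (by omega), List.nil_append]
  congr 1
  omega

/-- prediction: the label of a left window is the label of the right window -/
def Pred (lam : List α → Option V) (rho : List α → V) (a b c : ℕ) (Z : Set (List α)) : Prop :=
  ∀ w ∈ Z, c ≤ w.length → ∀ p l r q : List α, p ++ l ++ r ++ q = w → l.length = a →
    r.length = b → ∀ v, lam l = some v → v = rho r

/-- richness: every strand is cut soon -/
def Hit (M : α → V →+ V) (lam : List α → Option V) (a b c : ℕ) (Z : Set (List α)) : Prop :=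
  ∀ w ∈ Z, ∀ p z : List α, p ++ z = w → c ≤ z.length → ∀ e : V, ∃ k z' : List α, k ++ z' = z ∧
    a ≤ k.length ∧ k.length ≤ c ∧ b ≤ z'.length ∧
      lam (k.drop (k.length - a)) = some (act M k e)

theorem Pred.apply {Z : Set (List α)} (h : Pred lam rho a b c Z) {u z : List α}
    (hw : u ++ z ∈ Z) (hc : c ≤ (u ++ z).length) (hu : a ≤ u.length) (hz : b ≤ z.length) {v : V}
    (hv : lam (u.drop (u.length - a)) = some v) : v = rho (z.take b) := by
  refine h _ hw hc (u.take (u.length - a)) (u.drop (u.length - a)) (z.take b) (z.drop b) ?_ ?_ ?_ v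
    hv
  · rw [List.take_append_drop, List.append_assoc, List.take_append_drop]
  · rw [List.length_drop]; omega
  · rw [List.length_take]; omega

theorem sound_aux {Z : Set (List α)} (h : Pred lam rho a b c Z) (hba : b ≤ a) {x v : V}
    (l : List (List α)) : (∀ k ∈ l, k ∈ KL M lam rho a b c) → ∀ z ∈ SL M rho b c v,
      ∀ u : List α, a ≤ u.length → lam (u.drop (u.length - a)) = some (act M u x) →
        u ++ (l.flatten ++ z) ∈ Z → c ≤ (u ++ (l.flatten ++ z)).length →
          act M (u ++ (l.flatten ++ z)) x = v := by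
  induction l with
  | nil =>
    intro _ z hz u hu hlam hZ hc
    have h1 := h.apply hZ hc hu (by simpa using hz.1) hlam
    rw [act_append, h1]
    simpa using hz.2.2
  | cons k l ih =>
    intro hl z hz u hu hlam hZ hc
    obtain ⟨hk1, hk2, hk3⟩ := hl k List.mem_cons_self
    have e1 : u ++ ((k :: l).flatten ++ z) = (u ++ k) ++ (l.flatten ++ z) := by simp
    have h1 := h.apply hZ hc hu (by
      rw [List.flatten_cons, List.append_assoc, List.length_append]; omega) hlam
    have h2 : ((k :: l).flatten ++ z).take b = k.take b := by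
      rw [List.flatten_cons, List.append_assoc, List.take_append_of_le_length (by omega)]
    rw [h2] at h1
    rw [e1] at hZ hc ⊢
    refine ih (fun k' hk' => hl k' (List.mem_cons_of_mem _ hk')) z hz (u ++ k)
      (by rw [List.length_append]; omega) ?_ hZ hc
    rw [drop_append_suffix u k hk1, hk3, act_append, h1]

theorem sound {Z : Set (List α)} (h : Pred lam rho a b c Z) (hba : b ≤ a) {x v : V} {w : List α}
    (hZ : w ∈ Z) (hc : c ≤ w.length)
    (hw : w ∈ cat (PL M lam a c x) (cat (kst (KL M lam rho a b c)) (SL M rho b c v))) :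
    act M w x = v := by
  obtain ⟨p, ⟨hp1, -, hp2⟩, _, ⟨_, ⟨l, hl, rfl⟩, z, hz, rfl⟩, rfl⟩ := hw
  exact sound_aux h hba l hl z hz p hp1 hp2 hZ hc

theorem complete_aux {Z : Set (List α)} (h : Pred lam rho a b c Z) (h2 : Hit M lam a b c Z)
    (ha : 0 < a) (hba : b ≤ a) {x : V} (n : ℕ) : ∀ z : List α, z.length < n → b ≤ z.length →
      ∀ u : List α, a ≤ u.length → lam (u.drop (u.length - a)) = some (act M u x) →
        u ++ z ∈ Z → c ≤ (u ++ z).length →
          z ∈ cat (kst (KL M lam rho a b c)) (SL M rho b c (act M (u ++ z) x)) := by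
  induction n with
  | zero => intro z hz; omega
  | succ n ih =>
    intro z hzn hzb u hu hlam hZ hc
    have h1 := h.apply hZ hc hu hzb hlam
    by_cases hlen : z.length ≤ c
    · refine ⟨[], ⟨[], by simp, rfl⟩, z, ⟨hzb, hlen, ?_⟩, rfl⟩
      rw [act_append, h1]
    · obtain ⟨k, z', hkz, hk1, hk2, hz', hk3⟩ := h2 _ hZ u z rfl (by omega) (act M u x)
      subst hkz
      have hb : k.take b = (k ++ z').take b := by
        rw [List.take_append_of_le_length (by omega)]
      have hkK : k ∈ KL M lam rho a b c := by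
        refine ⟨hk1, hk2, ?_⟩
        rw [hk3, h1, hb]
      rw [List.length_append] at hzn
      have h3 := ih z' (by omega) hz' (u ++ k) (by rw [List.length_append]; omega)
        (by rw [drop_append_suffix u k hk1, hk3, act_append])
        (by rw [List.append_assoc]; exact hZ) (by rw [List.append_assoc]; exact hc)
      rw [List.append_assoc] at h3
      obtain ⟨y, hy, t, ht, hyt⟩ := h3
      exact ⟨k ++ y, kst_cons' hkK hy, t, ht, by rw [List.append_assoc, hyt]⟩

theorem complete {Z : Set (List α)} (h : Pred lam rho a b c Z) (h2 : Hit M lam a b c Z)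
    (ha : 0 < a) (hba : b ≤ a) {x : V} {w : List α} (hZ : w ∈ Z) (hc : c ≤ w.length) :
    w ∈ cat (PL M lam a c x) (cat (kst (KL M lam rho a b c)) (SL M rho b c (act M w x))) := by
  obtain ⟨k, z', hkz, hk1, hk2, hz', hk3⟩ := h2 w hZ [] w rfl hc x
  subst hkz
  exact ⟨k, ⟨hk1, hk2, hk3⟩, z', complete_aux h h2 ha hba (z'.length + 1) z' (Nat.lt_succ_self _)
    hz' k hk1 hk3 hZ hc, rfl⟩

theorem SH_lab [Finite α] [Finite V] {Z : Set (List α)} (hZ : SH 0 Z)
    (h : Pred lam rho a b c Z) (h2 : Hit M lam a b c Z) (ha : 0 < a) (hba : b ≤ a) (x : V)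
    (T : Set V) : SH 1 {w : List α | w ∈ Z ∧ act M w x ∈ T} := by
  classical
  have hlong : SH 1 {w : List α | c ≤ w.length} := by
    have h1 : SH 1 ({w : List α | w.length < c}ᶜ) :=
      ((SH.finite0 (finite_of_length c fun w (hw : w.length < c) => hw.le)).compl).of_zero
    convert h1 using 1
    ext w
    simp
  have hfin : ∀ A : Set (List α), (∀ w ∈ A, w.length ≤ c) → SH 1 A := fun A hA =>
    (SH.finite0 (finite_of_length c hA)).of_zero
  have h1 : ∀ v : V, SH 1 (P329.cat (PL M lam a c x)
      (P329.cat (P329.kst (KL M lam rho a b c)) (SL M rho b c v))) := fun v =>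
    (hfin _ fun w hw => hw.2.1).cat
      ((SH.kst (k := 0) (SH.finite0 (finite_of_length c fun w hw => hw.2.1))).cat
        (hfin _ fun w hw => hw.2.1))
  have h3 : SH 1 ((⋃ v : V, ⋃ _ : v ∈ T, (({w : List α | c ≤ w.length} ∩ Z) ∩
      P329.cat (PL M lam a c x) (P329.cat (P329.kst (KL M lam rho a b c)) (SL M rho b c v)))) ∪
      {w : List α | w.length ≤ c ∧ w ∈ Z ∧ act M w x ∈ T}) :=
    (SH.iUnion fun v => SH.iUnion_prop fun _ => (hlong.inter hZ.of_zero).inter (h1 v)).union
      (hfin _ fun w hw => hw.1)
  convert h3 using 1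
  ext w
  simp only [Set.mem_union, Set.mem_iUnion, Set.mem_inter_iff, Set.mem_setOf_eq]
  constructor
  · rintro ⟨hw, hT⟩
    by_cases hc : c ≤ w.length
    · exact Or.inl ⟨_, hT, ⟨hc, hw⟩, complete h h2 ha hba hw hc⟩
    · exact Or.inr ⟨by omega, hw, hT⟩
  · rintro (⟨v, hv, ⟨hc, hw⟩, h4⟩ | ⟨-, hw, hT⟩)
    · refine ⟨hw, ?_⟩
      rw [sound h hba hw hc h4]; exact hv
    · exact ⟨hw, hT⟩

end lab

end Vale.Agent.P329.Lab
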