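import Vale.Agent.P329.R2.H96.BlkX

set_option linter.all false

/-!
Words without repeated factors of length `a` have many blocks.
-/

namespace Vale.Agent.P329.Blk

open Vale.Agent.P329 Vale.Agent.P329.Slow Vale.Agent.P329.Mark

variable {α : Type} [Finite α]

/-- no word of length `a` occurs at two places of `s` -/
def NoRep (a : ℕ) (s : List α) : Prop :=
  ∀ i j : ℕ, i < j → j + a ≤ s.length → (s.drop i).take a ≠ (s.drop j).take a

theorem le_Bks {a p T : ℕ} {s : List α} (ha : 0 < a) (h : NoRep a s) (hp : p < a)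
    (hT : (T + 1) * a ≤ s.length) : T ≤ (Bks a p s).ncard := by
  have hinj : Set.InjOn (fun i => (s.drop (p + i * a)).take a) (Finset.range T : Set ℕ) := by
    intro i hi j hj hij
    rw [Finset.mem_coe, Finset.mem_range] at hi hj
    by_contra hne
    have main : ∀ i j, i < j → j < T →
        (s.drop (p + i * a)).take a = (s.drop (p + j * a)).take a → False := by
      intro i j hij hj he
      have h1 : (i + 1) * a ≤ j * a := Nat.mul_le_mul_right _ hij
      have h2 : (j + 1) * a ≤ T * a := Nat.mul_le_mul_right _ hj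
      have e1 : (i + 1) * a = i * a + a := by ring
      have e2 : (j + 1) * a = j * a + a := by ring
      have e3 : (T + 1) * a = T * a + a := by ring
      exact h _ _ (by omega) (by omega) he
    rcases lt_or_gt_of_ne hne with h1 | h1
    · exact main i j h1 hj hij
    · exact main j i h1 hi hij.symm
  have hsub : (fun i => (s.drop (p + i * a)).take a) '' (Finset.range T : Set ℕ) ⊆ Bks a p s := by
    rintro _ ⟨i, hi, rfl⟩
    rw [Finset.mem_coe, Finset.mem_range] at hi
    have h2 : (i + 1) * a ≤ T * a := Nat.mul_le_mul_right _ hi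
    have e3 : (T + 1) * a = T * a + a := by ring
    exact ⟨i, by omega, rfl⟩
  have h1 := Set.ncard_le_ncard hsub (Bks_finite a p s)
  rw [Set.ncard_image_of_injOn hinj, Set.ncard_coe_finset, Finset.card_range] at h1
  exact h1

/-- exponentially many markers without repetitions -/
theorem regular_rep (L : Language α) (hL : L.IsRegular) : ∃ C : ℕ, ∀ a : ℕ, 0 < a →
    ∀ X : Finset (List α), (∀ s ∈ X, NoRep a s ∧
      C * a * (Nat.log 2 (a * X.card) + 1) ≤ s.length) → ∀ m : ℕ,
        SH 1 {w : List α | w ∈ L ∧ w ∈ DomX X m} := by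
  obtain ⟨C, hC⟩ := regular_blk L hL
  refine ⟨C + 1, fun a ha X hX m => hC a ha X (fun s hs p hp => ?_) m⟩
  refine le_Bks ha (hX s hs).1 hp (le_trans ?_ (hX s hs).2)
  calc (C * (Nat.log 2 (a * X.card) + 1) + 1) * a
      ≤ (C * (Nat.log 2 (a * X.card) + 1) + (Nat.log 2 (a * X.card) + 1)) * a :=
        Nat.mul_le_mul_right _ (by omega)
    _ = (C + 1) * a * (Nat.log 2 (a * X.card) + 1) := by ring

end Vale.Agent.P329.Blk
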