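import Vale.Agent.P329.R2.H96.Det

set_option linter.all false

/-!
Choice of the labels.
-/

namespace Vale.Agent.P329.Lab

open Vale.Agent.P329 Vale.Agent.P329.Slow Vale.Agent.P329.Mark

section rho

open Classical in
/-- the determined places among `x₀, ..., x₀ + g - 1` -/
noncomputable def DetPl {α : Type} (F : Set (List α)) (a b g x₀ : ℕ) (s : List α) : Finset ℕ :=
  (Finset.range g).filter fun i => ¬ Und F b ((s.drop (x₀ + i - a)).take a)

variable {α : Type} [Finite α]

/-- undetermined windows of length `a` in `s` -/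
def UndSet (F : Set (List α)) (a b : ℕ) (s : List α) : Set (List α) :=
  {l | l <:+: s ∧ l.length = a ∧ Und F b l}

theorem UndSet_finite (F : Set (List α)) (a b : ℕ) (s : List α) : (UndSet F a b s).Finite :=
  finite_of_length a fun l hl => hl.2.1.le

/-- among `G` groups of `2 * t` consecutive places one has `t` determined places -/
theorem exists_group {F : Set (List α)} {N a b t G : ℕ} {s : List α} (hs : Free N s)
    (hlen : s.length = 3 * a) (hNa : N * (G * (2 * t)) ≤ a) (hGa : G * (2 * t) ≤ a)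
    (hU : (UndSet F a b (s.take (2 * a))).ncard < G * (t + 1)) :
    ∃ x₀, a ≤ x₀ ∧ x₀ + 2 * t ≤ 2 * a ∧ t ≤ (DetPl F a b (2 * t) x₀ s).card := by
  classical
  by_contra hcon
  push Not at hcon
  have h1 : ∀ γ ∈ Finset.range G, t + 1 ≤ ((Finset.range (2 * t)).filter fun i =>
      Und F b ((s.drop (a + γ * (2 * t) + i - a)).take a)).card := by
    intro γ hγ
    rw [Finset.mem_range] at hγ
    have h2 : (γ + 1) * (2 * t) ≤ G * (2 * t) := Nat.mul_le_mul_right _ hγ
    have e2 : (γ + 1) * (2 * t) = γ * (2 * t) + 2 * t := by ring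
    have h3 := hcon (a + γ * (2 * t)) (by omega) (by omega)
    have h4 := Finset.card_filter_add_card_filter_not (s := Finset.range (2 * t)) fun i =>
      Und F b ((s.drop (a + γ * (2 * t) + i - a)).take a)
    rw [Finset.card_range] at h4
    have h5 : (DetPl F a b (2 * t) (a + γ * (2 * t)) s).card = ((Finset.range (2 * t)).filter
        fun i => ¬ Und F b ((s.drop (a + γ * (2 * t) + i - a)).take a)).card := by
      unfold DetPl
      congr
    omega
  let Q : Finset (ℕ × ℕ) := (Finset.range G ×ˢ Finset.range (2 * t)).filter fun q =>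
    Und F b ((s.drop (a + q.1 * (2 * t) + q.2 - a)).take a)
  have hQ : G * (t + 1) ≤ Q.card := by
    have h2 : Q.card = ∑ γ ∈ Finset.range G, ((Finset.range (2 * t)).filter fun i =>
        Und F b ((s.drop (a + γ * (2 * t) + i - a)).take a)).card := by
      show ((Finset.range G ×ˢ Finset.range (2 * t)).filter _).card = _
      simp only [Finset.card_filter]
      rw [Finset.sum_product]
    rw [h2]
    calc G * (t + 1) = ∑ γ ∈ Finset.range G, (t + 1) := by simp
      _ ≤ _ := Finset.sum_le_sum h1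
  have hmem : ∀ q ∈ Q, q.1 * (2 * t) + q.2 < G * (2 * t) ∧ q.2 < 2 * t := by
    intro q hq
    rw [Finset.mem_filter, Finset.mem_product, Finset.mem_range, Finset.mem_range] at hq
    have h2 : (q.1 + 1) * (2 * t) ≤ G * (2 * t) := Nat.mul_le_mul_right _ hq.1.1
    have e2 : (q.1 + 1) * (2 * t) = q.1 * (2 * t) + 2 * t := by ring
    omega
  have hinj : Set.InjOn (fun q : ℕ × ℕ => (s.drop (q.1 * (2 * t) + q.2)).take a) Q := by
    intro q hq q' hq' he
    have h2 := hmem q hq
    have h3 := hmem q' hq'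
    have h4 : q.1 * (2 * t) + q.2 = q'.1 * (2 * t) + q'.2 :=
      window_inj (lo := 0) (hi := G * (2 * t)) (D := G * (2 * t)) hs hNa (by omega) (by omega)
        (by omega) (by omega) (by omega) (by omega) he
    have h5 : q.1 = q'.1 := by
      have h6 : (q.1 * (2 * t) + q.2) / (2 * t) = q.1 := by
        rw [Nat.mul_comm, Nat.mul_add_div (by omega), Nat.div_eq_of_lt h2.2, Nat.add_zero]
      have h7 : (q'.1 * (2 * t) + q'.2) / (2 * t) = q'.1 := by
        rw [Nat.mul_comm, Nat.mul_add_div (by omega), Nat.div_eq_of_lt h3.2, Nat.add_zero]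
      rw [← h6, h4, h7]
    have h8 : q.2 = q'.2 := by
      rw [h5] at h4; omega
    exact Prod.ext h5 h8
  have hsub : (fun q : ℕ × ℕ => (s.drop (q.1 * (2 * t) + q.2)).take a) '' Q ⊆
      UndSet F a b (s.take (2 * a)) := by
    rintro _ ⟨q, hq, rfl⟩
    have h2 := hmem q hq
    have h3 := (Finset.mem_filter.1 hq).2
    have e3 : a + q.1 * (2 * t) + q.2 - a = q.1 * (2 * t) + q.2 := by omega
    rw [e3] at h3
    refine ⟨?_, ?_, h3⟩
    · have e4 : (s.drop (q.1 * (2 * t) + q.2)).take a =
          ((s.take (2 * a)).drop (q.1 * (2 * t) + q.2)).take a := by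
        rw [List.drop_take, List.take_take, min_eq_left (by omega)]
      show (s.drop (q.1 * (2 * t) + q.2)).take a <:+: _
      rw [e4]
      exact ((List.take_prefix _ _).isInfix).trans (List.drop_suffix _ _).isInfix
    · show ((s.drop (q.1 * (2 * t) + q.2)).take a).length = a
      rw [List.length_take, List.length_drop]; omega
  have h2 := Set.ncard_le_ncard hsub (UndSet_finite F a b _)
  rw [Set.ncard_image_of_injOn hinj, Set.ncard_coe_finset] at h2
  omega

variable {V : Type} [Fintype V] [AddCommGroup V] (M : α → V →+ V)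

theorem exists_rho {F : Set (List α)} {N a b t G : ℕ} (hF : ∀ s ∈ F, Free N s)
    (hNa : N * (G * (2 * t)) ≤ a) (hGa : G * (2 * t) ≤ a) (hNb : N * (2 * t) ≤ b) (hba : b ≤ a)
    (hU : ∀ s ∈ F, s.length = 3 * a →
      (UndSet F a b (s.take (2 * a))).ncard < G * (t + 1))
    (hp : {u | u ∈ F ∧ u.length = 3 * a}.ncard * Fintype.card V * (Fintype.card V - 1) ^ t <
      Fintype.card V ^ t) :
    ∃ rho : List α → V, ∀ s ∈ F, s.length = 3 * a → ∀ e : V, ∃ x, a ≤ x ∧ x + b ≤ 3 * a ∧
      ¬ Und F b ((s.drop (x - a)).take a) ∧ rho ((s.drop x).take b) = act M (s.take x) e := by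
  classical
  have hPfin : {r : List α | r.length ≤ b}.Finite := finite_of_length b fun r hr => hr
  letI : Fintype {r : List α | r.length ≤ b} := hPfin.fintype
  have hTfin : {u | u ∈ F ∧ u.length = 3 * a}.Finite := finite_of_length (3 * a) fun r hr => hr.2.le
  letI : Fintype {u | u ∈ F ∧ u.length = 3 * a} := hTfin.fintype
  have hI : ∀ s : {u | u ∈ F ∧ u.length = 3 * a}, ∃ I : Finset {r : List α | r.length ≤ b},
      I.card = t ∧ ∀ p ∈ I, ∃ x, a ≤ x ∧ x + b ≤ 3 * a ∧
        ¬ Und F b ((s.1.drop (x - a)).take a) ∧ (s.1.drop x).take b = p.1 := by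
    rintro ⟨s, hs, hlen⟩
    obtain ⟨x₀, hx1, hx2, hx3⟩ := exists_group (F := F) (b := b) (hF s hs) hlen hNa hGa
      (hU s hs hlen)
    obtain ⟨J, hJ, hJc⟩ := Finset.exists_subset_card_eq hx3
    let f : ℕ → {r : List α | r.length ≤ b} := fun i =>
      ⟨(s.drop (x₀ + i)).take b, by
        show ((s.drop (x₀ + i)).take b).length ≤ b
        rw [List.length_take]; exact min_le_left _ _⟩
    refine ⟨J.image f, ?_, ?_⟩
    · rw [Finset.card_image_of_injOn, hJc]
      intro i hi j hj hij
      have h1 := Finset.mem_filter.1 (hJ hi)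
      have h2 := Finset.mem_filter.1 (hJ hj)
      rw [Finset.mem_range] at h1 h2
      have h3 : (s.drop (x₀ + i)).take b = (s.drop (x₀ + j)).take b := congrArg Subtype.val hij
      have h4 := window_inj (lo := x₀) (hi := x₀ + 2 * t) (D := 2 * t) (hF s hs) hNb (by omega)
        (by omega) (by omega) (by omega) (by omega) (by omega) h3
      omega
    · intro p hp
      obtain ⟨i, hi, rfl⟩ := Finset.mem_image.1 hp
      have h1 := Finset.mem_filter.1 (hJ hi)
      rw [Finset.mem_range] at h1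
      exact ⟨x₀ + i, by omega, by omega, h1.2, rfl⟩
  choose I hIc hIx using hI
  have hX : ∀ (s : {u | u ∈ F ∧ u.length = 3 * a}) (p : {r : List α | r.length ≤ b}), ∃ x,
      p ∈ I s → a ≤ x ∧ x + b ≤ 3 * a ∧
        ¬ Und F b ((s.1.drop (x - a)).take a) ∧ (s.1.drop x).take b = p.1 := by
    intro s p
    by_cases hp : p ∈ I s
    · obtain ⟨x, hx⟩ := hIx s p hp
      exact ⟨x, fun _ => hx⟩
    · exact ⟨0, fun h => absurd h hp⟩
  choose X hX using hX
  obtain ⟨ρ, hρ⟩ := exists_label (P := {r : List α | r.length ≤ b}) (V := V)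
    (T := {u | u ∈ F ∧ u.length = 3 * a} × V) t (fun i => I i.1) (fun i => hIc i.1)
    (fun i p => act M (i.1.1.take (X i.1 p)) i.2) (by
      rw [Fintype.card_prod]
      have e1 : Fintype.card {u | u ∈ F ∧ u.length = 3 * a} =
          {u | u ∈ F ∧ u.length = 3 * a}.ncard := by
        rw [← Nat.card_eq_fintype_card, Nat.card_coe_set_eq]
      rw [e1]; exact hp)
  refine ⟨fun r => if h : r.length ≤ b then ρ ⟨r, h⟩ else 0, fun s hs hlen e => ?_⟩
  obtain ⟨p, hp1, hp2⟩ := hρ (⟨s, hs, hlen⟩, e)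
  obtain ⟨h1, h2, h3, h4⟩ := hX ⟨s, hs, hlen⟩ p hp1
  refine ⟨X ⟨s, hs, hlen⟩ p, h1, h2, h3, ?_⟩
  have h5 : ((s.drop (X ⟨s, hs, hlen⟩ p)).take b) = p.1 := h4
  have h6 : ((s.drop (X ⟨s, hs, hlen⟩ p)).take b).length ≤ b := by rw [h5]; exact p.2
  simp only
  rw [dif_pos h6, ← hp2]
  congr 1
  exact Subtype.ext h5

end rho

end Vale.Agent.P329.Lab
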