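import Vale.Agent.P329.R2.H96.Rho

set_option linter.all false

/-!
Languages with rare branching, and languages of subquadratic complexity.
-/

namespace Vale.Agent.P329.Lab

open Vale.Agent.P329 Vale.Agent.P329.Slow Vale.Agent.P329.Mark

section main

variable {α : Type} [Finite α]

/-- the words all of whose factors of length `m` are in `F` -/
def Loc (F : Set (List α)) (m : ℕ) : Set (List α) :=
  {w | ∀ u : List α, u <:+: w → u.length = m → u ∈ F}

theorem SH_Loc (F : Set (List α)) (m : ℕ) : SH 0 (Loc F m) := by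
  have hB : SH 0 {u : List α | u.length = m ∧ u ∉ F} :=
    SH.finite0 (finite_of_length m fun w hw => hw.1.le)
  have h1 := ((SH.univ (k := 0)).cat (hB.cat (SH.univ (k := 0)))).compl
  convert h1 using 1
  ext w
  constructor
  · rintro hw ⟨a, -, _, ⟨u, ⟨hu, hn⟩, t, -, rfl⟩, rfl⟩
    exact hn (hw u ⟨a, t, by simp⟩ hu)
  · intro hw u hu hm
    by_contra hn
    obtain ⟨a, t, rfl⟩ := hu
    exact hw ⟨a, trivial, u ++ t, ⟨u, ⟨hm, hn⟩, t, trivial, rfl⟩, by simp⟩

variable {V : Type} [Fintype V] [AddCommGroup V] (M : α → V →+ V)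

theorem SH_det {F : Set (List α)} {N a b t G : ℕ}
    (hfac : ∀ w ∈ F, ∀ u : List α, u <:+: w → u ∈ F) (hF : ∀ s ∈ F, Free N s) (ha : 0 < a)
    (hNa : N * (G * (2 * t)) ≤ a) (hGa : G * (2 * t) ≤ a) (hNb : N * (2 * t) ≤ b) (hba : b ≤ a)
    (hU : ∀ s ∈ F, s.length = 3 * a →
      (UndSet F a b (s.take (2 * a))).ncard < G * (t + 1))
    (hp : {u | u ∈ F ∧ u.length = 3 * a}.ncard * Fintype.card V * (Fintype.card V - 1) ^ t <
      Fintype.card V ^ t) (x : V) (T : Set V) :
    SH 1 {w : List α | w ∈ Loc F (3 * a) ∧ act M w x ∈ T} := by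
  classical
  obtain ⟨rho, hrho⟩ := exists_rho M hF hNa hGa hNb hba hU hp
  let lam : List α → Option V := fun l =>
    if h : ∃ r : List α, r.length = b ∧ l ++ r ∈ F ∧ ¬ Und F b l then some (rho h.choose) else none
  have hlam : ∀ l r : List α, r.length = b → l ++ r ∈ F → ¬ Und F b l → lam l = some (rho r) := by
    intro l r hr hlr hU
    have h : ∃ r : List α, r.length = b ∧ l ++ r ∈ F ∧ ¬ Und F b l := ⟨r, hr, hlr, hU⟩
    have h1 : lam l = some (rho h.choose) := dif_pos h
    rw [h1]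
    by_contra hne
    refine hU ⟨h.choose, r, h.choose_spec.1, hr, h.choose_spec.2.1, hlr, fun h2 => hne ?_⟩
    rw [h2]
  have hlam2 : ∀ l v, lam l = some v → ¬ Und F b l := by
    intro l v hl
    by_contra hU
    have h1 : lam l = none := dif_neg fun ⟨r, _, _, h⟩ => h hU
    rw [h1] at hl
    exact absurd hl (by simp)
  refine SH_lab (lam := lam) (rho := rho) (a := a) (b := b) (c := 3 * a) (SH_Loc F (3 * a)) ?_ ?_
    ha hba x T
  · intro w hw hc p l r q hpq hl hr v hv
    obtain ⟨u, hu1, hu2, hu3⟩ := exists_long (w := w) (y := l ++ r) (n := 3 * a)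
      ⟨p, q, by rw [← hpq]; simp⟩ (by rw [List.length_append]; omega) hc
    have h1 := hlam l r hr (hfac u (hw u hu1 hu2) _ hu3) (hlam2 l v hv)
    rw [h1] at hv
    exact (Option.some.inj hv).symm
  · intro w hw p z hpz hz e
    have hs : z.take (3 * a) ∈ F := by
      refine hw _ ?_ ?_
      · rw [← hpz]
        exact ((List.take_prefix _ _).isInfix).trans (List.suffix_append _ _).isInfix
      · rw [List.length_take]; omega
    have hslen : (z.take (3 * a)).length = 3 * a := by rw [List.length_take]; omega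
    obtain ⟨x, hx1, hx2, hx3, hx4⟩ := hrho _ hs hslen e
    have e1 : (z.take (3 * a)).take x = z.take x := by rw [List.take_take, min_eq_left (by omega)]
    have hkl : (z.take x).length = x := by rw [List.length_take]; omega
    refine ⟨z.take x, z.drop x, List.take_append_drop _ _, by omega, by omega,
      by rw [List.length_drop]; omega, ?_⟩
    rw [hkl]
    have e2 : ((z.take (3 * a)).drop (x - a)).take a = (z.take x).drop (x - a) := by
      rw [← e1]
      generalize z.take (3 * a) = s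
      rw [List.drop_take, show x - (x - a) = a by omega]
    rw [e2] at hx3
    rw [e1] at hx4
    rw [← hx4]
    refine hlam _ _ ?_ ?_ hx3
    · rw [List.length_take, List.length_drop]; omega
    · refine hfac _ hs _ ?_
      have e3 : (z.take x).drop (x - a) ++ ((z.take (3 * a)).drop x).take b =
          ((z.take (3 * a)).drop (x - a)).take (a + b) := by
        rw [← e2, List.take_add, List.drop_drop]
        congr 3
        omega
      rw [e3]
      exact ((List.take_prefix _ _).isInfix).trans (List.drop_suffix _ _).isInfix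

/-- parameters -/
theorem SH_det' {F : Set (List α)} {N a b : ℕ} (hN : 0 < N)
    (hfac : ∀ w ∈ F, ∀ u : List α, u <:+: w → u ∈ F) (hF : ∀ s ∈ F, Free N s)
    (hb : 2 * N * Fintype.card V * (Nat.log 2 (Fintype.card V) + 3) *
      (Nat.log 2 {u | u ∈ F ∧ u.length = 3 * a}.ncard + 1) ≤ b)
    (hba : b ≤ a)
    (hU : ∀ s ∈ F, s.length = 2 * a → 4 * N * (UndSet F a b s).ncard ≤ a) (x : V) (T : Set V) :
    SH 1 {w : List α | w ∈ Loc F (3 * a) ∧ act M w x ∈ T} := by
  obtain ⟨v, hv⟩ : ∃ v, v = Fintype.card V := ⟨_, rfl⟩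
  obtain ⟨p, hp⟩ : ∃ p, p = {u | u ∈ F ∧ u.length = 3 * a}.ncard := ⟨_, rfl⟩
  rw [← hv, ← hp] at hb
  have hv0 : 0 < v := by rw [hv]; exact Fintype.card_pos
  obtain ⟨j, hj⟩ : ∃ j, j = Nat.log 2 (v * p) + 1 := ⟨_, rfl⟩
  have hjv : v * p < 2 ^ j := by rw [hj]; exact Nat.lt_pow_succ_log_self (by norm_num) _
  have hjle : j ≤ (Nat.log 2 v + 3) * (Nat.log 2 p + 1) := by
    have h1 : v < 2 ^ (Nat.log 2 v + 1) := Nat.lt_pow_succ_log_self (by norm_num) _
    have h2 : p < 2 ^ (Nat.log 2 p + 1) := Nat.lt_pow_succ_log_self (by norm_num) _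
    have h3 : v * p < 2 ^ ((Nat.log 2 v + 1) + (Nat.log 2 p + 1)) := by
      rw [pow_add]
      exact Nat.mul_lt_mul_of_lt_of_le h1 h2.le (by positivity)
    have h4 : Nat.log 2 (v * p) < (Nat.log 2 v + 1) + (Nat.log 2 p + 1) := by
      rcases Nat.eq_zero_or_pos (v * p) with h0 | h0
      · rw [h0]; simp
      · exact (Nat.log_lt_iff_lt_pow (by norm_num) (by omega)).2 h3
    have h5 : (Nat.log 2 v + 3) * (Nat.log 2 p + 1) =
      Nat.log 2 v * Nat.log 2 p + Nat.log 2 v + 3 * Nat.log 2 p + 3 := by ring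
    rw [h5, hj]
    have h6 : 0 ≤ Nat.log 2 v * Nat.log 2 p := Nat.zero_le _
    omega
  obtain ⟨t, ht⟩ : ∃ t, t = v * j := ⟨_, rfl⟩
  have hj0 : 0 < j := by omega
  have ht0 : 0 < t := by rw [ht]; positivity
  have hNb : N * (2 * t) ≤ b := by
    refine le_trans ?_ hb
    calc N * (2 * t) = 2 * N * v * j := by rw [ht]; ring
      _ ≤ 2 * N * v * ((Nat.log 2 v + 3) * (Nat.log 2 p + 1)) := Nat.mul_le_mul_left _ hjle
      _ = _ := by ring
  obtain ⟨G, hG⟩ : ∃ G, G = a / (N * (2 * t)) := ⟨_, rfl⟩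
  have hNt : 0 < N * (2 * t) := by positivity
  have hG1 : G * (N * (2 * t)) ≤ a := by rw [hG]; exact Nat.div_mul_le_self _ _
  have hG2 : a < (G + 1) * (N * (2 * t)) := by
    rw [hG, Nat.mul_comm]; exact Nat.lt_mul_div_succ _ hNt
  have hG0 : 0 < G := by
    rw [hG]; exact Nat.div_pos (hNb.trans hba) hNt
  have e1 : N * (G * (2 * t)) = G * (N * (2 * t)) := by ring
  have hNa : N * (G * (2 * t)) ≤ a := by rw [e1]; exact hG1
  have hGa : G * (2 * t) ≤ a := (Nat.le_mul_of_pos_left _ hN).trans hNa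
  refine SH_det M (N := N) (a := a) (b := b) (t := t) (G := G) hfac hF (by omega) hNa hGa hNb hba ?_
    ?_ x T
  · intro s hs hlen
    have h1 := hU (s.take (2 * a)) (hfac s hs _ (List.take_prefix _ _).isInfix)
      (by rw [List.length_take]; omega)
    by_contra hcon
    push Not at hcon
    have h2 : 4 * N * (G * (t + 1)) ≤ a := (Nat.mul_le_mul_left _ hcon).trans h1
    have h3 : 4 * N * (G * (t + 1)) = 2 * G * (N * (2 * t)) + 4 * N * G := by ring
    have h4 : (G + 1) * (N * (2 * t)) = G * (N * (2 * t)) + N * (2 * t) := by ring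
    have h5 : N * (2 * t) ≤ G * (N * (2 * t)) := Nat.le_mul_of_pos_left _ hG0
    have h6 : 2 * G * (N * (2 * t)) = G * (N * (2 * t)) + G * (N * (2 * t)) := by ring
    omega
  · rw [← hv, ← hp, ht]
    have h1 := pow_ineq v j hv0
    have hvp : 0 < v ^ (v * j) := by positivity
    rcases Nat.eq_zero_or_pos ((v - 1) ^ (v * j)) with h0 | h0
    · rw [h0, Nat.mul_zero]; exact hvp
    · calc p * v * (v - 1) ^ (v * j) < 2 ^ j * (v - 1) ^ (v * j) :=
          Nat.mul_lt_mul_of_pos_right (by rw [Nat.mul_comm]; exact hjv) h0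
        _ ≤ v ^ (v * j) := h1

end main

end Vale.Agent.P329.Lab
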